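import Vale.Agent.P329h8.Defs

namespace Vale.Agent.P329h8

variable {α : Type}

@[simp] theorem GExp.mem_zero (w : List α) : w ∈ (GExp.zero : GExp α).lang ↔ False := by
  simp [GExp.lang]

@[simp] theorem GExp.mem_one (w : List α) : w ∈ (GExp.one : GExp α).lang ↔ w = [] := by
  simp [GExp.lang]

@[simp] theorem GExp.mem_letter (w : List α) (a : α) : w ∈ (GExp.letter a).lang ↔ w = [a] := by
  simp [GExp.lang]; rfl

@[simp] theorem GExp.mem_plus (w : List α) (P Q : GExp α) :
    w ∈ (GExp.plus P Q).lang ↔ w ∈ P.lang ∨ w ∈ Q.lang := by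
  simp [GExp.lang, Language.mem_add]

theorem GExp.mem_times (w : List α) (P Q : GExp α) :
    w ∈ (GExp.times P Q).lang ↔ ∃ u v, w = u ++ v ∧ u ∈ P.lang ∧ v ∈ Q.lang := by
  simp only [GExp.lang, Language.mem_mul]
  constructor
  · rintro ⟨u, hu, v, hv', rfl⟩; exact ⟨u, v, rfl, hu, hv'⟩
  · rintro ⟨u, v, rfl, hu, hv'⟩; exact ⟨u, hu, v, hv', rfl⟩

@[simp] theorem GExp.mem_neg (w : List α) (P : GExp α) :
    w ∈ (GExp.neg P).lang ↔ w ∉ P.lang := Iff.rfl

theorem GExp.mem_star (w : List α) (P : GExp α) :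
    w ∈ (GExp.star P).lang ↔ ∃ L : List (List α), w = L.flatten ∧ ∀ y ∈ L, y ∈ P.lang := by
  simp only [GExp.lang, Language.mem_kstar]

/-- `HB n p`: the predicate `p` on words is denoted by an expression of star height at most `n`. -/
def HB (n : ℕ) (p : List α → Prop) : Prop :=
  ∃ e : GExp α, e.height ≤ n ∧ ∀ w, w ∈ e.lang ↔ p w

theorem HB.congr {n : ℕ} {p q : List α → Prop} (h : HB n p) (hpq : ∀ w, p w ↔ q w) : HB n q := by
  obtain ⟨e, he, hw⟩ := h
  exact ⟨e, he, fun w => (hw w).trans (hpq w)⟩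

theorem HB.mono {m n : ℕ} {p : List α → Prop} (h : HB m p) (hmn : m ≤ n) : HB n p := by
  obtain ⟨e, he, hw⟩ := h
  exact ⟨e, he.trans hmn, hw⟩

theorem HB.ff (n : ℕ) : HB n (fun _ : List α => False) :=
  ⟨.zero, by simp [GExp.height], fun w => by simp [GExp.lang]⟩

theorem HB.nil (n : ℕ) : HB n (fun w : List α => w = []) :=
  ⟨.one, by simp [GExp.height], fun w => by simp [GExp.lang]⟩

theorem HB.single (n : ℕ) (a : α) : HB n (fun w : List α => w = [a]) :=
  ⟨.letter a, by simp [GExp.height], fun w => by simp [GExp.lang]; rfl⟩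

theorem HB.or {n : ℕ} {p q : List α → Prop} (hp : HB n p) (hq : HB n q) :
    HB n (fun w => p w ∨ q w) := by
  obtain ⟨e, he, hw⟩ := hp
  obtain ⟨f, hf, hv⟩ := hq
  refine ⟨.plus e f, by simp [GExp.height, he, hf], fun w => ?_⟩
  simp only [GExp.lang, Language.mem_add, hw, hv]

theorem HB.not {n : ℕ} {p : List α → Prop} (hp : HB n p) : HB n (fun w => ¬ p w) := by
  obtain ⟨e, he, hw⟩ := hp
  refine ⟨.neg e, by simpa [GExp.height] using he, fun w => ?_⟩
  have : w ∈ (GExp.neg e).lang ↔ w ∉ e.lang := Iff.rfl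
  rw [this, hw]

theorem HB.tt (n : ℕ) : HB n (fun _ : List α => True) :=
  ((HB.ff n).not).congr (fun w => by simp)

theorem HB.and {n : ℕ} {p q : List α → Prop} (hp : HB n p) (hq : HB n q) :
    HB n (fun w => p w ∧ q w) :=
  ((hp.not.or hq.not).not).congr (fun w => by tauto)

theorem HB.concat {n : ℕ} {p q : List α → Prop} (hp : HB n p) (hq : HB n q) :
    HB n (fun w => ∃ u v, w = u ++ v ∧ p u ∧ q v) := by
  obtain ⟨e, he, hw⟩ := hp
  obtain ⟨f, hf, hv⟩ := hq
  refine ⟨.times e f, by simp [GExp.height, he, hf], fun w => ?_⟩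
  simp only [GExp.lang, Language.mem_mul, hw, hv]
  constructor
  · rintro ⟨u, hu, v, hv', rfl⟩; exact ⟨u, v, rfl, hu, hv'⟩
  · rintro ⟨u, v, rfl, hu, hv'⟩; exact ⟨u, hu, v, hv', rfl⟩

theorem HB.star {n : ℕ} {p : List α → Prop} (hp : HB n p) :
    HB (n + 1) (fun w => ∃ L : List (List α), w = L.flatten ∧ ∀ y ∈ L, p y) := by
  obtain ⟨e, he, hw⟩ := hp
  refine ⟨.star e, by simpa [GExp.height] using he, fun w => ?_⟩
  simp only [GExp.lang, Language.mem_kstar, hw]

/-- Finite existential closure. -/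
theorem HB.exists {n : ℕ} {ι : Type} [Finite ι] {p : ι → List α → Prop} (hp : ∀ i, HB n (p i)) :
    HB n (fun w => ∃ i, p i w) := by
  obtain ⟨l, hl⟩ := Finite.exists_univ_list ι
  have key : ∀ l : List ι, HB n (fun w => ∃ i ∈ l, p i w) := by
    intro l
    induction l with
    | nil => exact (HB.ff n).congr (fun w => by simp)
    | cons a l ih =>
      exact ((hp a).or ih).congr (fun w => by simp)
  exact (key l).congr (fun w => by simp [hl.2])

theorem HB.forall {n : ℕ} {ι : Type} [Finite ι] {p : ι → List α → Prop} (hp : ∀ i, HB n (p i)) :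
    HB n (fun w => ∀ i, p i w) :=
  (HB.exists (fun i => (hp i).not)).not.congr (fun w => by simp)

/-- Finite unions indexed by a decidable-free predicate on a finite type. -/
theorem HB.exists_and {n : ℕ} {ι : Type} [Finite ι] (c : ι → Prop) {p : ι → List α → Prop}
    (hp : ∀ i, HB n (p i)) : HB n (fun w => ∃ i, c i ∧ p i w) := by
  classical
  refine (HB.exists (fun i => (if hc : c i then (hp i).congr (fun w => ?_) else
    (HB.ff n).congr (fun w => ?_) : HB n (fun w => c i ∧ p i w)))).congr (fun w => Iff.rfl)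
  · simp [hc]
  · simp [hc]

/-- Membership of a letter is star free. -/
theorem HB.allLetters [Finite α] (n : ℕ) (P : α → Prop) : HB n (fun w : List α => ∀ x ∈ w, P x) := by
  -- the complement of `Σ* (¬P) Σ*`
  have h1 : HB n (fun w : List α => ∃ a, ¬ P a ∧ w = [a]) :=
    HB.exists_and (fun a => ¬ P a) (fun a => HB.single n a)
  have h2 := (((HB.tt n).concat h1).concat (HB.tt n)).not
  refine h2.congr (fun w => ?_)
  constructor
  · intro h x hx
    by_contra hPx
    apply h
    obtain ⟨s, t, rfl⟩ := List.append_of_mem hx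
    exact ⟨s ++ [x], t, by simp, ⟨s, [x], rfl, trivial, x, hPx, rfl⟩, trivial⟩
  · rintro h ⟨u, v, rfl, ⟨s, t, rfl, -, a, ha, rfl⟩, -⟩
    exact ha (h a (by simp))

end Vale.Agent.P329h8
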