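import Vale.Agent.P329h8.Cut

namespace Vale.Agent.P329h8

variable {α : Type}

section walk

variable (f : α → Bool) (wt : α → ℤ)

/-- The level: parity of the flipping letters. -/
def lev : Bool → List α → Bool
  | p, [] => p
  | p, x :: u => lev (xor p (f x)) u

/-- The walk: letters are counted with their weight when they arrive at an even level. -/
def Hs : Bool → List α → ℤ
  | _, [] => 0
  | p, x :: u => (if xor p (f x) = false then wt x else 0) + Hs (xor p (f x)) u

theorem lev_append (p : Bool) (u v : List α) : lev f p (u ++ v) = lev f (lev f p u) v := by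
  induction u generalizing p with
  | nil => rfl
  | cons x u ih => exact ih _

theorem Hs_append (p : Bool) (u v : List α) :
    Hs f wt p (u ++ v) = Hs f wt p u + Hs f wt (lev f p u) v := by
  induction u generalizing p with
  | nil => simp [Hs, lev]
  | cons x u ih =>
    simp only [List.cons_append, Hs, lev, ih]
    ring

theorem lev_xor (p : Bool) (u : List α) : lev f p u = xor p (lev f false u) := by
  induction u generalizing p with
  | nil => simp [lev]
  | cons x u ih =>
    simp only [lev]
    rw [ih, ih (xor false (f x))]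
    cases p <;> cases f x <;> simp

theorem Hs_add_not (p : Bool) (u : List α) : Hs f wt p u + Hs f wt (!p) u = (u.map wt).sum := by
  induction u generalizing p with
  | nil => simp [Hs]
  | cons x u ih =>
    simp only [Hs, List.map_cons, List.sum_cons]
    have h := ih (xor p (f x))
    have h2 : xor (!p) (f x) = !(xor p (f x)) := by cases p <;> cases f x <;> rfl
    rw [h2, ← h]
    cases hq : xor p (f x) <;> simp <;> ring

variable {f wt}

/-- Discrete intermediate values. -/
theorem ivt (hwt : ∀ x, -1 ≤ wt x ∧ wt x ≤ 1) (p : Bool) (u : List α) (T : ℤ)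
    (hT : (0 < T ∧ T ≤ Hs f wt p u) ∨ (Hs f wt p u ≤ T ∧ T < 0)) :
    ∃ u₁ u₂, u = u₁ ++ u₂ ∧ Hs f wt p u₁ = T ∧ lev f p u₁ = false := by
  induction u generalizing p T with
  | nil => simp only [Hs] at hT; omega
  | cons x u ih =>
    simp only [Hs] at hT
    by_cases hq : xor p (f x) = false
    · rw [if_pos hq] at hT
      obtain ⟨h1, h2⟩ := hwt x
      by_cases hd : T = wt x
      · refine ⟨[x], u, rfl, ?_, ?_⟩
        · simp [Hs, hq, hd]
        · simpa [lev] using hq
      · obtain ⟨u₁, u₂, rfl, h3, h4⟩ := ih (xor p (f x)) (T - wt x) (by omega)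
        refine ⟨x :: u₁, u₂, rfl, ?_, ?_⟩
        · simp only [Hs, if_pos hq, h3]; ring
        · simpa [lev] using h4
    · rw [if_neg hq] at hT
      obtain ⟨u₁, u₂, rfl, h3, h4⟩ := ih (xor p (f x)) T (by omega)
      refine ⟨x :: u₁, u₂, rfl, ?_, ?_⟩
      · simp only [Hs, if_neg hq, h3]; ring
      · simpa [lev] using h4

variable (f wt)

/-- The walk automaton with the counter taken modulo `N`. -/
def wstep (N : ℕ) (σ : Bool × ZMod N) (x : α) : Bool × ZMod N :=
  (xor σ.1 (f x), σ.2 + (((if xor σ.1 (f x) = false then wt x else 0) : ℤ) : ZMod N))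

theorem run_wstep (N : ℕ) (p : Bool) (h : ZMod N) (u : List α) :
    run (wstep f wt N) (p, h) u = (lev f p u, h + ((Hs f wt p u : ℤ) : ZMod N)) := by
  induction u generalizing p h with
  | nil => simp [lev, Hs]
  | cons x u ih =>
    simp only [run_cons, wstep, ih, lev, Hs, Int.cast_add]
    simp [add_assoc]

variable {f wt}

theorem pw_two (y : List α) (k : ℕ) : pw y (2 * (k + 1)) = y ++ (y ++ pw y (2 * k)) := by
  have : 2 * (k + 1) = 2 * k + 1 + 1 := by ring
  rw [this]; rfl

theorem lev_lev (y : List α) (p : Bool) : lev f (lev f p y) y = p := by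
  rw [lev_xor f p y, lev_xor f _ y]
  cases p <;> cases lev f false y <;> rfl

theorem lev_pw (y : List α) (p : Bool) (k : ℕ) : lev f p (pw y (2 * k)) = p := by
  induction k with
  | zero => rfl
  | succ k ih =>
    rw [pw_two, lev_append, lev_append, lev_lev, ih]

theorem Hs_pw (y : List α) (p : Bool) (k : ℕ) :
    Hs f wt p (pw y (2 * k)) = k * (Hs f wt p y + Hs f wt (lev f p y) y) := by
  induction k with
  | zero => simp [pw, Hs]
  | succ k ih =>
    rw [pw_two, Hs_append, Hs_append, lev_lev, ih]
    push_cast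
    ring

/-- Counting in the walk, when every loop with an odd number of flips has nonzero weight. -/
theorem count_hb1 [Finite α] (N : ℕ) [NeZero N] (hwt : ∀ x, -1 ≤ wt x ∧ wt x ≤ 1)
    (hodd : ∀ y : List α, lev f false y = true → (y.map wt).sum ≠ 0)
    (p : Bool) (h : ZMod N) :
    HB 1 (fun w => lev f false w = p ∧ ((Hs f wt false w : ℤ) : ZMod N) = h) := by
  have hN : 0 < N := Nat.pos_of_ne_zero (NeZero.ne N)
  have key := cut_theorem (wstep f wt N) (false, 0) (fun y hy σ => ?_) (p, h)
  · refine key.congr (fun w => ?_)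
    rw [run_wstep, zero_add, Prod.mk.injEq]
  obtain ⟨p₀, h₀⟩ := σ
  by_cases hG : Hs f wt p₀ y + Hs f wt (lev f p₀ y) y = 0
  · refine Or.inl ⟨0, ?_⟩
    have hev : lev f false y = false := by
      by_contra hne
      have h1 : lev f false y = true := by simpa using hne
      have h2 : lev f p₀ y = !p₀ := by
        rw [lev_xor f p₀ y, h1]; simp
      rw [h2, Hs_add_not] at hG
      exact hodd y h1 hG
    have h2 : lev f p₀ y = p₀ := by
      rw [lev_xor f p₀ y, hev]; simp
    rw [h2] at hG
    have h3 : Hs f wt p₀ y = 0 := by omega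
    simp [run_wstep, h2, h3]
  · refine Or.inr ?_
    set G := Hs f wt p₀ y + Hs f wt (lev f p₀ y) y with hGdef
    have hval : h₀.val < N := ZMod.val_lt h₀
    have hval' : (-h₀).val < N := ZMod.val_lt _
    -- the target value of the counter
    obtain ⟨T, hT0, hT1, hT2⟩ : ∃ T : ℤ, T ≠ 0 ∧ h₀ + (T : ZMod N) = 0 ∧
        ((0 < T ∧ T ≤ N * G) ∨ (N * G ≤ T ∧ T < 0)) := by
      rcases lt_or_gt_of_ne hG with hneg | hpos
      · refine ⟨((-h₀).val : ℤ) - N, by omega, ?_, Or.inr ⟨?_, by omega⟩⟩
        · push_cast
          rw [ZMod.natCast_zmod_val]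
          simp
        · have h1 : (N : ℤ) * G ≤ N * (-1) :=
            mul_le_mul_of_nonneg_left (by omega) (by omega)
          omega
      · refine ⟨(N : ℤ) - h₀.val, by omega, ?_, Or.inl ⟨by omega, ?_⟩⟩
        · push_cast
          rw [ZMod.natCast_zmod_val]
          simp
        · have h1 : (N : ℤ) * 1 ≤ N * G :=
            mul_le_mul_of_nonneg_left (by omega) (by omega)
          omega
    obtain ⟨u₁, u₂, h1, h2, h3⟩ := ivt hwt p₀ (pw y (2 * N)) T (by
      rw [Hs_pw]; exact hT2)
    refine ⟨2 * N, u₁, u₂, h1, ?_, ?_⟩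
    · rintro rfl
      exact hT0 (by rw [← h2]; rfl)
    · rw [run_wstep, h2, h3, hT1]

end walk

end Vale.Agent.P329h8
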