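import Vale.Agent.P329h8.Dfa

namespace Vale.Agent.P329h8

variable {α S : Type}

/-- Power of a word. -/
def pw (y : List α) : ℕ → List α
  | 0 => []
  | m + 1 => y ++ pw y m

theorem run_pw (δ : S → α → S) (y : List α) (m : ℕ) (σ : S) :
    run δ σ (pw y m) = (fun τ => run δ τ y)^[m] σ := by
  induction m generalizing σ with
  | zero => rfl
  | succ m ih =>
    simp only [pw, run_append, Function.iterate_succ_apply]
    exact ih _

section cut

variable [DecidableEq S] (δ : S → α → S) (q₀ : S)

/-- The automaton that stops at the first return to `q₀`: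
`none` is the dead state, `some none` the accepting state, `some (some σ)` the live states. -/
def cutStep : Option (Option S) → α → Option (Option S)
  | none, _ => none
  | some none, _ => none
  | some (some σ), x => if δ σ x = q₀ then some none else some (some (δ σ x))

theorem cut_dead (w : List α) : run (cutStep δ q₀) none w = none := by
  induction w with
  | nil => rfl
  | cons x w ih => simpa [cutStep] using ih

theorem cut_acc (w : List α) (hw : w ≠ []) : run (cutStep δ q₀) (some none) w = none := by
  cases w with
  | nil => exact (hw rfl).elim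
  | cons x w => simpa [cutStep] using cut_dead δ q₀ w

theorem cut_live (w : List α) (σ τ : S)
    (h : run (cutStep δ q₀) (some (some σ)) w = some (some τ)) : run δ σ w = τ := by
  induction w generalizing σ with
  | nil => simpa using h
  | cons x w ih =>
    simp only [run_cons, cutStep] at h
    split_ifs at h with hx
    · cases w with
      | nil => simp at h
      | cons y w => rw [cut_acc δ q₀ _ (by simp)] at h; simp at h
    · exact ih _ h

theorem cut_accept (w : List α) (σ : S)
    (h : run (cutStep δ q₀) (some (some σ)) w = some none) : run δ σ w = q₀ := by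
  induction w generalizing σ with
  | nil => simp at h
  | cons x w ih =>
    simp only [run_cons, cutStep] at h
    split_ifs at h with hx
    · cases w with
      | nil => simpa using hx
      | cons y w => rw [cut_acc δ q₀ _ (by simp)] at h; simp at h
    · exact ih _ h

/-- A run is live, or it accepts at some prefix. -/
theorem cut_cases (w : List α) (σ : S) :
    run (cutStep δ q₀) (some (some σ)) w = some (some (run δ σ w)) ∨
      ∃ u v, w = u ++ v ∧ run (cutStep δ q₀) (some (some σ)) u = some none := by
  induction w generalizing σ with
  | nil => exact Or.inl rfl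
  | cons x w ih =>
    by_cases hx : δ σ x = q₀
    · exact Or.inr ⟨[x], w, rfl, by simp [cutStep, hx]⟩
    · rcases ih (δ σ x) with h | ⟨u, v, rfl, h⟩
      · exact Or.inl (by simpa [cutStep, hx] using h)
      · exact Or.inr ⟨x :: u, v, rfl, by simpa [cutStep, hx] using h⟩

/-- If a nonempty prefix of the word returns to `q₀`, the stopped run is not live. -/
theorem cut_hit (u v : List α) (σ : S) (hu : u ≠ []) (h : run δ σ u = q₀) (τ : S) :
    run (cutStep δ q₀) (some (some σ)) (u ++ v) ≠ some (some τ) := by
  induction u generalizing σ with
  | nil => exact (hu rfl).elim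
  | cons x u ih =>
    simp only [List.cons_append, run_cons, cutStep]
    by_cases hx : δ σ x = q₀
    · rw [if_pos hx]
      by_cases hw : u ++ v = []
      · simp [hw]
      · rw [cut_acc δ q₀ _ hw]; simp
    · rw [if_neg hx]
      have hune : u ≠ [] := by
        rintro rfl
        exact hx h
      exact ih (δ σ x) hune h

/-- Eventually dead once not live. -/
theorem cut_eventually (y : List α) (hy : y ≠ []) (t : Option (Option S)) (k : ℕ)
    (h : ∀ τ, (fun t => run (cutStep δ q₀) t y)^[k] t ≠ some (some τ)) :
    ∃ n, (fun t => run (cutStep δ q₀) t y)^[n + 1] t = (fun t => run (cutStep δ q₀) t y)^[n] t := by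
  refine ⟨k + 1, ?_⟩
  have h1 : (fun t => run (cutStep δ q₀) t y)^[k + 1] t = none := by
    rw [Function.iterate_succ_apply']
    generalize (fun t => run (cutStep δ q₀) t y)^[k] t = s at h
    rcases s with _ | _ | τ
    · exact cut_dead δ q₀ y
    · exact cut_acc δ q₀ y hy
    · exact (h τ rfl).elim
  rw [Function.iterate_succ_apply', h1]
  exact cut_dead δ q₀ y

/-- Aperiodicity of the stopped automaton from the simple condition on the original one. -/
theorem cut_aper (H : ∀ (y : List α), y ≠ [] → ∀ σ : S,
      (∃ n : ℕ, (fun τ => run δ τ y)^[n + 1] σ = (fun τ => run δ τ y)^[n] σ) ∨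
      ∃ m u v, pw y m = u ++ v ∧ u ≠ [] ∧ run δ σ u = q₀)
    (y : List α) (t : Option (Option S)) :
    ∃ n : ℕ, (fun s => run (cutStep δ q₀) s y)^[n + 1] t =
      (fun s => run (cutStep δ q₀) s y)^[n] t := by
  by_cases hy : y = []
  · subst hy
    exact ⟨0, rfl⟩
  rcases t with _ | _ | σ
  · refine cut_eventually δ q₀ y hy _ 0 (by simp)
  · refine cut_eventually δ q₀ y hy _ 0 (by simp)
  · rcases H y hy σ with ⟨n, hn⟩ | ⟨m, u, v, h1, h2, h3⟩
    · -- the iterates agree while live
      have hlive : ∀ k, (∀ τ, (fun t => run (cutStep δ q₀) t y)^[k] (some (some σ)) ≠ some (some τ))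
          ∨ (fun t => run (cutStep δ q₀) t y)^[k] (some (some σ)) =
            some (some ((fun τ => run δ τ y)^[k] σ)) := by
        intro k
        rw [← run_pw, ← run_pw]
        rcases cut_cases δ q₀ (pw y k) σ with h | ⟨u, v, h1, h2⟩
        · exact Or.inr h
        · refine Or.inl ?_
          intro τ
          rw [h1]
          have hu : u ≠ [] := by
            rintro rfl
            simp at h2
          exact cut_hit δ q₀ u v σ hu (cut_accept δ q₀ u σ h2) τ
      rcases hlive n with h | h
      · exact cut_eventually δ q₀ y hy _ n h
      · rcases hlive (n + 1) with h' | h'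
        · exact cut_eventually δ q₀ y hy _ (n + 1) h'
        · exact ⟨n, by rw [h, h', hn]⟩
    · refine cut_eventually δ q₀ y hy _ m (fun τ => ?_)
      rw [← run_pw, h1]
      exact cut_hit δ q₀ u v σ h2 h3 τ

/-- The cut theorem: if removing `q₀` leaves no nontrivial periodicity, then all languages
of the automaton started at `q₀` have generalized star height at most one. -/
theorem cut_theorem [Finite α] [Finite S] (H : ∀ (y : List α), y ≠ [] → ∀ σ : S,
      (∃ n : ℕ, (fun τ => run δ τ y)^[n + 1] σ = (fun τ => run δ τ y)^[n] σ) ∨
      ∃ m u v, pw y m = u ++ v ∧ u ≠ [] ∧ run δ σ u = q₀) (q : S) :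
    HB 1 (fun w => run δ q₀ w = q) := by
  have hap := cut_aper δ q₀ H
  have hK : HB 0 (fun w => run (cutStep δ q₀) (some (some q₀)) w = some none) :=
    schutz_dfa _ hap _ _
  have hP : HB 0 (fun w => run (cutStep δ q₀) (some (some q₀)) w = some (some q)) :=
    schutz_dfa _ hap _ _
  refine (hK.star.concat (hP.mono (by omega))).congr (fun w => ?_)
  constructor
  · rintro ⟨u, v, rfl, ⟨L, rfl, hL⟩, hv⟩
    have h1 : run δ q₀ L.flatten = q₀ := by
      induction L with
      | nil => rfl
      | cons a L ih =>
        rw [List.flatten_cons, run_append, cut_accept δ q₀ a q₀ (hL a (by simp))]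
        exact ih (fun y hy => hL y (by simp [hy]))
    rw [run_append, h1]
    exact cut_live δ q₀ v q₀ q hv
  · intro h
    induction hn : w.length using Nat.strong_induction_on generalizing w with
    | _ n ih =>
      rcases cut_cases δ q₀ w q₀ with h1 | ⟨u, v, rfl, h1⟩
      · exact ⟨[], w, rfl, ⟨[], rfl, by simp⟩, by rw [h1, h]⟩
      · have hu : u ≠ [] := by
          rintro rfl
          simp at h1
        have h2 : run δ q₀ v = q := by
          rw [run_append, cut_accept δ q₀ u q₀ h1] at h
          exact h
        have hlen : v.length < n := by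
          subst hn
          have : 0 < u.length := List.length_pos_iff.2 hu
          simp
          omega
        obtain ⟨u', v', rfl, ⟨L, rfl, hL⟩, hv'⟩ := ih v.length hlen v h2 rfl
        refine ⟨(u :: L).flatten, v', by simp, ⟨u :: L, rfl, ?_⟩, hv'⟩
        intro y hy
        rcases List.mem_cons.1 hy with rfl | hy
        · exact h1
        · exact hL y hy

end cut

end Vale.Agent.P329h8
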