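import Mathlib

namespace Vale.Agent.P329h8

/-- Generalized regular expressions: constants, letters, union, concatenation,
complement (in the set of all words) and Kleene star. -/
inductive GExp (α : Type) : Type
  | zero : GExp α
  | one : GExp α
  | letter (a : α) : GExp α
  | plus (P Q : GExp α) : GExp α
  | times (P Q : GExp α) : GExp α
  | neg (P : GExp α) : GExp α
  | star (P : GExp α) : GExp α

/-- The language denoted by a generalized regular expression. -/
def GExp.lang {α : Type} : GExp α → Language α
  | .zero => 0
  | .one => 1
  | .letter a => {[a]}
  | .plus P Q => P.lang + Q.lang
  | .times P Q => P.lang * Q.lang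
  | .neg P => {w | w ∉ P.lang}
  | .star P => KStar.kstar P.lang

/-- Star height: complement does not count, star adds one. -/
def GExp.height {α : Type} : GExp α → ℕ
  | .zero => 0
  | .one => 0
  | .letter _ => 0
  | .plus P Q => max P.height Q.height
  | .times P Q => max P.height Q.height
  | .neg P => P.height
  | .star P => P.height + 1

end Vale.Agent.P329h8
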