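import Vale.Agent.P329h8.Schutz

namespace Vale.Agent.P329h8

variable {α S : Type}

/-- The run of a deterministic automaton. -/
def run (δ : S → α → S) (σ : S) (w : List α) : S := w.foldl δ σ

@[simp] theorem run_nil (δ : S → α → S) (σ : S) : run δ σ [] = σ := rfl

@[simp] theorem run_cons (δ : S → α → S) (σ : S) (x : α) (w : List α) :
    run δ σ (x :: w) = run δ (δ σ x) w := rfl

theorem run_append (δ : S → α → S) (σ : S) (u v : List α) :
    run δ σ (u ++ v) = run δ (run δ σ u) v := by
  simp [run, List.foldl_append]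

/-- Transformation induced by a word. -/
def runE (δ : S → α → S) (w : List α) : Function.End S := fun σ => run δ σ w

theorem end_pow_apply (g : Function.End S) (n : ℕ) (σ : S) :
    (g ^ n : Function.End S) σ = g^[n] σ := by
  induction n generalizing σ with
  | zero => rfl
  | succ n ih =>
    have h : (g ^ (n + 1) : Function.End S) σ = (g ^ n : Function.End S) (g σ) := by
      rw [pow_succ]; rfl
    rw [h, ih]; rfl

/-- Submonoid of transformations induced by words. -/
def wordSub (δ : S → α → S) : Submonoid (Function.End S)ᵐᵒᵖ where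
  carrier := {x | ∃ w, x = MulOpposite.op (runE δ w)}
  one_mem' := ⟨[], rfl⟩
  mul_mem' := by
    rintro x y ⟨u, rfl⟩ ⟨v, rfl⟩
    refine ⟨u ++ v, ?_⟩
    apply MulOpposite.unop_injective
    funext σ
    exact (run_append δ σ u v).symm

theorem schutz_dfa [Finite α] [Finite S] (δ : S → α → S)
    (hap : ∀ (w : List α) (σ : S), ∃ n : ℕ,
      (fun τ => run δ τ w)^[n + 1] σ = (fun τ => run δ τ w)^[n] σ)
    (σ₀ τ₀ : S) : HB 0 (fun w => run δ σ₀ w = τ₀) := by
  classical
  have : Finite (Function.End S) := inferInstanceAs (Finite (S → S))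
  have : Finite (Function.End S)ᵐᵒᵖ := Finite.of_equiv _ MulOpposite.opEquiv
  have hA : Aper (wordSub δ) := by
    rintro ⟨x, w, rfl⟩
    have := Fintype.ofFinite S
    choose n hn using hap w
    refine ⟨Finset.univ.sup n, ?_⟩
    apply Subtype.ext
    apply MulOpposite.unop_injective
    funext σ
    simp only [SubmonoidClass.coe_pow, MulOpposite.unop_pow, MulOpposite.unop_op]
    rw [end_pow_apply, end_pow_apply]
    have hle : n σ ≤ Finset.univ.sup n := Finset.le_sup (Finset.mem_univ σ)
    obtain ⟨d, hd⟩ := Nat.exists_eq_add_of_le' hle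
    have h1 := hn σ
    change (fun τ => run δ τ w)^[Finset.univ.sup n] σ = (fun τ => run δ τ w)^[Finset.univ.sup n + 1] σ
    rw [hd, Nat.add_assoc, Function.iterate_add_apply, Function.iterate_add_apply, h1]
  let φ : α → wordSub δ := fun x => ⟨MulOpposite.op (runE δ [x]), [x], rfl⟩
  have hev : ∀ w : List α, ((w.map φ).prod : wordSub δ).1 = MulOpposite.op (runE δ w) := by
    intro w
    induction w with
    | nil => rfl
    | cons x w ih =>
      simp only [List.map_cons, List.prod_cons, Submonoid.coe_mul, ih]
      apply MulOpposite.unop_injective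
      funext σ
      rfl
  have hR := schutz' hA φ
  have h1 : HB 0 (fun w : List α => ∃ x : wordSub δ, (x.1.unop σ₀ = τ₀) ∧ (w.map φ).prod = x) :=
    HB.exists_and _ (fun x => hR x)
  refine h1.congr (fun w => ?_)
  constructor
  · rintro ⟨x, hx, rfl⟩
    rw [hev] at hx
    exact hx
  · intro h
    refine ⟨(w.map φ).prod, ?_, rfl⟩
    rw [hev]
    exact h

end Vale.Agent.P329h8
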