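import Vale.Agent.P329h8.Count

namespace Vale.Agent.P329h8

variable {α : Type}

/-- If membership depends only on finitely many invariants modulo `N`, each with star height
at most one, then so does the language. -/
theorem HB.of_invariants {ι : Type} [Finite ι] [Finite α] (N : ℕ) [NeZero N] (g : ι → List α → ℤ)
    (hg : ∀ i r, HB 1 (fun w => ((g i w : ℤ) : ZMod N) = r)) (q : List α → Prop)
    (hq : ∀ u v, (∀ i, ((g i u : ℤ) : ZMod N) = ((g i v : ℤ) : ZMod N)) → (q u ↔ q v)) : HB 1 q := by
  have h1 : HB 1 (fun w => ∃ ξ : ι → ZMod N, (∃ v, q v ∧ ∀ i, ((g i v : ℤ) : ZMod N) = ξ i) ∧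
      ∀ i, ((g i w : ℤ) : ZMod N) = ξ i) :=
    HB.exists_and _ (fun ξ => HB.forall (fun i => hg i (ξ i)))
  refine h1.congr (fun w => ?_)
  constructor
  · rintro ⟨ξ, ⟨v, hv, hv'⟩, hw⟩
    exact (hq w v (fun i => by rw [hw i, hv' i])).2 hv
  · intro h
    exact ⟨fun i => ((g i w : ℤ) : ZMod N), ⟨w, h, fun _ => rfl⟩, fun _ => rfl⟩

section weights

variable (f : α → Bool)

/-- Weight one on the flipping letters. -/
def flipW (x : α) : ℤ := if f x then 1 else 0

/-- Weight one on the letter `y`. -/
def indW [DecidableEq α] (y x : α) : ℤ := if x = y then 1 else 0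

/-- Mixed weight separating the letter `y` from the other flips. -/
def mixW [DecidableEq α] (y x : α) : ℤ :=
  if f y then (if x = y then -1 else flipW f x) else flipW f x + indW y x

theorem Hs_linear (wt wt₁ wt₂ : α → ℤ) (κ : ℤ) (h : ∀ x, wt x = wt₁ x + κ * wt₂ x) (p : Bool)
    (w : List α) : Hs f wt p w = Hs f wt₁ p w + κ * Hs f wt₂ p w := by
  induction w generalizing p with
  | nil => simp [Hs]
  | cons x w ih =>
    simp only [Hs, ih, h x]
    cases xor p (f x) <;> simp
    ring

theorem Hs_false_sum (wt : α → ℤ) (w : List α) :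
    Hs (fun _ => false) wt false w = (w.map wt).sum := by
  induction w with
  | nil => simp [Hs]
  | cons x w ih =>
    simp [Hs, ih]

theorem lev_false_const (w : List α) : lev (fun _ => false) false w = false := by
  induction w with
  | nil => rfl
  | cons x w ih => simpa [lev] using ih

/-- Odd number of flips forces an odd weight, when the weights have the parity of the flips. -/
theorem hodd_parity (wt : α → ℤ) (hpar : ∀ x, (wt x) % 2 = flipW f x) (p : Bool) (w : List α) :
    ((w.map wt).sum + (if p then 1 else 0)) % 2 = if lev f p w then 1 else 0 := by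
  induction w generalizing p with
  | nil => simp [lev]; cases p <;> simp
  | cons x w ih =>
    have hl : lev f p (x :: w) = lev f (xor p (f x)) w := rfl
    rw [hl, ← ih (xor p (f x))]
    simp only [List.map_cons, List.sum_cons]
    have h := hpar x
    simp only [flipW] at h
    cases p <;> cases hfx : f x <;> simp [hfx] at h ⊢ <;> omega

theorem hodd_pos (wt : α → ℤ) (h0 : ∀ x, 0 ≤ wt x) (h1 : ∀ x, f x = true → 1 ≤ wt x) (p : Bool)
    (w : List α) (hw : lev f p w ≠ p) : 0 < (w.map wt).sum := by
  induction w generalizing p with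
  | nil => exact (hw rfl).elim
  | cons x w ih =>
    simp only [List.map_cons, List.sum_cons]
    have hs : 0 ≤ (w.map wt).sum := by
      apply List.sum_nonneg
      intro a ha
      obtain ⟨b, _, rfl⟩ := List.mem_map.1 ha
      exact h0 b
    by_cases hfx : f x = true
    · have := h1 x hfx
      omega
    · have hfx' : f x = false := by simpa using hfx
      have h2 : lev f p w ≠ p := by
        simpa [lev, hfx'] using hw
      have := ih p h2
      have := h0 x
      omega

theorem hb_sum [Finite α] (N : ℕ) [NeZero N] (wt : α → ℤ) (hwt : ∀ x, -1 ≤ wt x ∧ wt x ≤ 1)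
    (r : ZMod N) : HB 1 (fun w : List α => (((w.map wt).sum : ℤ) : ZMod N) = r) := by
  have := count_hb1 (f := fun _ : α => false) N hwt (fun y hy => by
    rw [lev_false_const] at hy; simp at hy) false r
  refine this.congr (fun w => ?_)
  rw [lev_false_const, Hs_false_sum]
  simp

theorem hb_walk [Finite α] (N : ℕ) [NeZero N] (wt : α → ℤ) (hwt : ∀ x, -1 ≤ wt x ∧ wt x ≤ 1)
    (hodd : ∀ y : List α, lev f false y = true → (y.map wt).sum ≠ 0)
    (r : ZMod N) : HB 1 (fun w : List α => ((Hs f wt false w : ℤ) : ZMod N) = r) := by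
  have h1 := (count_hb1 N hwt hodd false r).or (count_hb1 N hwt hodd true r)
  refine h1.congr (fun w => ?_)
  constructor
  · rintro (h | h) <;> exact h.2
  · intro h
    cases hl : lev f false w
    · exact Or.inl ⟨rfl, h⟩
    · exact Or.inr ⟨rfl, h⟩

theorem flipW_bounds (x : α) : 0 ≤ flipW f x ∧ flipW f x ≤ 1 := by
  unfold flipW
  split_ifs <;> simp

theorem hb_flip [Finite α] (N : ℕ) [NeZero N] (r : ZMod N) :
    HB 1 (fun w : List α => ((Hs f (flipW f) false w : ℤ) : ZMod N) = r) := by
  refine hb_walk f N _ (fun x => ?_) (fun y hy => ?_) r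
  · have := flipW_bounds f x
    omega
  · have h := hodd_pos f (flipW f) (fun x => (flipW_bounds f x).1) (fun x hx => by simp [flipW, hx])
      false y (by simp [hy])
    omega

theorem hb_mix [Finite α] [DecidableEq α] (N : ℕ) [NeZero N] (y : α) (r : ZMod N) :
    HB 1 (fun w : List α => ((Hs f (mixW f y) false w : ℤ) : ZMod N) = r) := by
  refine hb_walk f N _ (fun x => ?_) (fun u hu => ?_) r
  · by_cases hxy : x = y
    · subst hxy
      unfold mixW indW flipW
      cases hfx : f x <;> simp
    · have := flipW_bounds f x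
      unfold mixW indW
      simp only [hxy, if_false]
      split_ifs <;> omega
  · by_cases hy : f y = true
    · have h := hodd_parity f (mixW f y) (fun x => ?_) false u
      · intro h0
        rw [h0, hu] at h
        simp at h
      · unfold mixW
        rw [if_pos hy]
        by_cases hxy : x = y
        · subst hxy
          simp [flipW, hy]
        · rw [if_neg hxy]
          unfold flipW
          split_ifs <;> rfl
    · have hy' : f y = false := by simpa using hy
      have h := hodd_pos f (mixW f y) (fun x => ?_) (fun x hx => ?_) false u (by simp [hu])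
      · omega
      · have := flipW_bounds f x
        simp only [mixW, hy', if_false, Bool.false_eq_true]
        unfold indW
        split_ifs <;> omega
      · simp only [mixW, hy', if_false, Bool.false_eq_true]
        unfold indW flipW
        simp only [hx, if_true]
        split_ifs <;> omega

theorem Hs_snoc (wt : α → ℤ) (w : List α) (x : α) :
    Hs f wt false (w ++ [x]) =
      Hs f wt false w + (if lev f false (w ++ [x]) = false then wt x else 0) := by
  rw [Hs_append, lev_append]
  simp [Hs, lev]

theorem lev_snoc (w : List α) (x : α) :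
    lev f false (w ++ [x]) = xor (lev f false w) (f x) := by
  rw [lev_append]; rfl

end weights

theorem zpow_congr_of_dvd {H : Type} [Group H] (z : H) (E : ℕ) (hz : z ^ E = 1) (m m' : ℤ)
    (h : (E : ℤ) ∣ m - m') : z ^ m = z ^ m' := by
  obtain ⟨k, hk⟩ := h
  have h1 : m = m' + E * k := by omega
  rw [h1, zpow_add, zpow_mul, zpow_natCast, hz, one_zpow, mul_one]

section formula

variable {G : Type} [Group G] {B : Type} [CommGroup B]
variable [Fintype α] [DecidableEq α]
variable (φ : α → G) (f : α → Bool) (s : G) (ι : B →* G) (c : α → Bool → B)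

/-- Number of flips. -/
def JJ (w : List α) : ℤ := (w.map (flipW f)).sum

/-- Occurrences of `y` arriving at an even level. -/
def oo (y : α) (w : List α) : ℤ := Hs f (indW y) false w

/-- Occurrences of `y`. -/
def nn (y : α) (w : List α) : ℤ := (w.map (indW y)).sum

/-- The part of the product in the abelian subgroup. -/
def aa (w : List α) : B :=
  ∏ y, (c y false) ^ oo f y w * (c y true) ^ (nn y w - oo f y w)

theorem aa_snoc (w : List α) (x : α) :
    aa f c (w ++ [x]) = aa f c w * c x (lev f false (w ++ [x])) := by
  have h : ∀ y, (c y false) ^ oo f y (w ++ [x]) * (c y true) ^ (nn y (w ++ [x]) - oo f y (w ++ [x]))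
      = ((c y false) ^ oo f y w * (c y true) ^ (nn y w - oo f y w)) *
        (if x = y then c x (lev f false (w ++ [x])) else 1) := by
    intro y
    have ho : oo f y (w ++ [x]) = oo f y w +
        (if lev f false (w ++ [x]) = false then indW y x else 0) := Hs_snoc f _ w x
    have hn : nn y (w ++ [x]) = nn y w + indW y x := by
      simp [nn]
    rw [ho, hn]
    by_cases hxy : x = y
    · subst hxy
      cases hl : lev f false (w ++ [x])
      · simp only [if_true, indW]
        rw [show nn x w + 1 - (oo f x w + 1) = nn x w - oo f x w by ring, zpow_add, zpow_one]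
        rw [mul_assoc, mul_assoc, mul_comm (c x false)]
      · simp only [Bool.true_eq_false, if_false, indW, if_true, add_zero]
        rw [show nn x w + 1 - oo f x w = nn x w - oo f x w + 1 by ring, zpow_add (c x true), zpow_one]
        rw [mul_assoc]
    · simp [indW, hxy]
  unfold aa
  rw [Finset.prod_congr rfl (fun y _ => h y), Finset.prod_mul_distrib, Finset.prod_ite_eq]
  simp

theorem prod_formula
    (hstep : ∀ w x, s ^ JJ f w * φ x = ι (c x (lev f false (w ++ [x]))) * s ^ (JJ f w + flipW f x))
    (w : List α) : (w.map φ).prod = ι (aa f c w) * s ^ JJ f w := by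
  induction w using List.reverseRecOn with
  | nil => simp [aa, oo, nn, JJ, Hs]
  | append_singleton w x ih =>
    have hJ : JJ f (w ++ [x]) = JJ f w + flipW f x := by simp [JJ]
    rw [List.map_append, List.prod_append, ih, aa_snoc, hJ, map_mul]
    simp only [List.map_cons, List.map_nil, List.prod_cons, List.prod_nil, mul_one]
    rw [mul_assoc, hstep, mul_assoc]

end formula

/-- An abelian subgroup as a commutative group. -/
abbrev abelSub {G : Type} [Group G] (A : Subgroup G) (hcomm : ∀ x ∈ A, ∀ y ∈ A, x * y = y * x) :
    CommGroup A :=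
  { (inferInstance : Group A) with
    mul_comm := fun a b => Subtype.ext (hcomm a a.2 b b.2) }

/-- Main theorem, in terms of `HB`. -/
theorem index_two {G : Type} [Group G] [Finite G] (A : Subgroup G)
    (hA : ∀ g h, g ∉ A → h ∉ A → g * h ∈ A) (hcomm : ∀ x ∈ A, ∀ y ∈ A, x * y = y * x)
    {Sig : Type} [Finite Sig] (φ : Sig → G) (S : Set G) :
    HB 1 (fun w : List Sig => (w.map φ).prod ∈ S) := by
  classical
  have := Fintype.ofFinite Sig
  let f : Sig → Bool := fun x => decide (φ x ∉ A)
  have hf : ∀ x, f x = true ↔ φ x ∉ A := fun x => by simp [f]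
  have hf' : ∀ x, f x = false ↔ φ x ∈ A := fun x => by simp [f]
  -- the coset representative
  obtain ⟨s, hs1, hs2, hs3⟩ : ∃ s : G, s * s ∈ A ∧ (∀ x, φ x ∉ A → s⁻¹ * φ x ∈ A) ∧
      ∀ a ∈ A, s * a * s⁻¹ ∈ A := by
    by_cases hex : ∃ t, φ t ∉ A
    · obtain ⟨t, ht⟩ := hex
      refine ⟨φ t, hA _ _ ht ht, fun x hx => hA _ _ (by simpa using ht) hx, fun a ha => ?_⟩
      refine hA _ _ (fun h => ht ?_) (by simpa using ht)
      have := A.mul_mem h (A.inv_mem ha)
      simpa using this
    · push Not at hex
      exact ⟨1, by simp, fun x hx => (hx (hex x)).elim, fun a ha => by simpa using ha⟩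
  -- the part of a letter in `A`
  let b : Sig → G := fun x => if φ x ∈ A then φ x else s⁻¹ * φ x
  have hb : ∀ x, b x ∈ A := by
    intro x
    by_cases hx : φ x ∈ A
    · simpa [b, hx] using hx
    · simpa [b, hx] using hs2 x hx
  have hbφ : ∀ x, φ x = s ^ flipW f x * b x := by
    intro x
    by_cases hx : φ x ∈ A
    · have : f x = false := (hf' x).2 hx
      simp [flipW, this, b, hx]
    · have : f x = true := (hf x).2 hx
      simp [flipW, this, b, hx]
  -- levels and powers of `s`
  have hlv : ∀ w : List Sig, (lev f false w = false → s ^ JJ f w ∈ A) ∧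
      (lev f false w = true → s⁻¹ * s ^ JJ f w ∈ A) := by
    intro w
    induction w using List.reverseRecOn with
    | nil => simp [JJ, lev, A.one_mem]
    | append_singleton w x ih =>
      have hJ : JJ f (w ++ [x]) = JJ f w + flipW f x := by simp [JJ]
      rw [hJ, lev_snoc]
      cases hl : lev f false w <;> cases hfx : f x
      · have h0 := ih.1 hl
        simp [flipW, hfx, h0]
      · have h0 := ih.1 hl
        have h1 : s⁻¹ * s ^ (JJ f w + 1) = s ^ JJ f w := by
          rw [add_comm, zpow_one_add, inv_mul_cancel_left]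
        simp [flipW, hfx, h1, h0]
      · have h0 := ih.2 hl
        simp [flipW, hfx, h0]
      · have h0 := ih.2 hl
        have h1 : s * s ^ JJ f w = s * s * (s⁻¹ * s ^ JJ f w) := by simp [mul_assoc]
        have h2 := A.mul_mem hs1 h0
        rw [← h1] at h2
        simp [flipW, hfx, add_comm _ (1 : ℤ), zpow_one_add, h2]
  -- the abelian subgroup as a commutative group
  let cg : CommGroup A := abelSub A hcomm
  let ι : A →* G := { toFun := Subtype.val, map_one' := rfl, map_mul' := fun _ _ => rfl }
  have hιinj : Function.Injective ι := Subtype.val_injective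
  let c : Sig → Bool → A := fun x ε =>
    if ε then ⟨s * b x * s⁻¹, hs3 _ (hb x)⟩ else ⟨b x, hb x⟩
  have hstep : ∀ w x, s ^ JJ f w * φ x =
      ι (c x (lev f false (w ++ [x]))) * s ^ (JJ f w + flipW f x) := by
    intro w x
    have hJ : JJ f (w ++ [x]) = JJ f w + flipW f x := by simp [JJ]
    have h1 : s ^ JJ f w * φ x = s ^ (JJ f w + flipW f x) * b x := by
      rw [zpow_add, mul_assoc, ← hbφ]
    rw [h1]
    have h2 := hlv (w ++ [x])
    rw [hJ] at h2
    cases hl : lev f false (w ++ [x])
    · have h3 := h2.1 hl
      exact hcomm _ h3 _ (hb x)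
    · have h3 := h2.2 hl
      have h4 := hcomm _ h3 _ (hb x)
      change s ^ (JJ f w + flipW f x) * b x = s * b x * s⁻¹ * s ^ (JJ f w + flipW f x)
      calc s ^ (JJ f w + flipW f x) * b x
          = s * ((s⁻¹ * s ^ (JJ f w + flipW f x)) * b x) := by simp [mul_assoc]
        _ = s * (b x * (s⁻¹ * s ^ (JJ f w + flipW f x))) := by rw [h4]
        _ = s * b x * s⁻¹ * s ^ (JJ f w + flipW f x) := by simp [mul_assoc]
  have hform := prod_formula φ f s ι c hstep
  -- exponents
  set E := Nat.card G with hE
  have hEpos : 0 < E := Nat.card_pos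
  have hpow : ∀ z : G, z ^ E = 1 := fun z => pow_card_eq_one'
  have hpowA : ∀ z : A, z ^ E = 1 := by
    intro z
    apply hιinj
    rw [map_pow, map_one]
    exact hpow _
  have : NeZero (2 * E) := ⟨by omega⟩
  -- the invariants
  let g : Option Sig × Bool → List Sig → ℤ := fun i => match i with
    | (none, false) => Hs f (flipW f) false
    | (none, true) => fun w => (w.map (flipW f)).sum
    | (some y, false) => Hs f (mixW f y) false
    | (some y, true) => fun w => (w.map (indW y)).sum
  have hg : ∀ i r, HB 1 (fun w => ((g i w : ℤ) : ZMod (2 * E)) = r) := by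
    rintro ⟨_ | y, _ | _⟩ r
    · exact hb_flip f (2 * E) r
    · refine hb_sum (2 * E) (flipW f) (fun x => ?_) r
      have := flipW_bounds f x
      omega
    · exact hb_mix f (2 * E) y r
    · refine hb_sum (2 * E) (indW y) (fun x => ?_) r
      unfold indW
      split_ifs <;> simp
  have hdvd : ∀ a b : ℤ, ((a : ℤ) : ZMod (2 * E)) = ((b : ℤ) : ZMod (2 * E)) →
      ((2 * E : ℕ) : ℤ) ∣ a - b := by
    intro a b h
    have := (ZMod.intCast_eq_intCast_iff_dvd_sub a b (2 * E)).1 h
    rw [← neg_sub]
    exact (dvd_neg).2 this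
  have hd2 : ∀ d : ℤ, ((2 * E : ℕ) : ℤ) ∣ d → (E : ℤ) ∣ d := by
    intro d h
    refine dvd_trans ⟨2, ?_⟩ h
    push_cast
    ring
  refine HB.of_invariants (2 * E) g hg _ (fun u v huv => ?_)
  have hJ : (E : ℤ) ∣ JJ f u - JJ f v := hd2 _ (hdvd _ _ (huv (none, true)))
  have hn : ∀ y, (E : ℤ) ∣ nn y u - nn y v := fun y => hd2 _ (hdvd _ _ (huv (some y, true)))
  have ho : ∀ y, (E : ℤ) ∣ oo f y u - oo f y v := by
    intro y
    have h1 := hdvd _ _ (huv (none, false))
    have h2 := hdvd _ _ (huv (some y, false))
    have hlin : ∀ w, Hs f (mixW f y) false w =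
        Hs f (flipW f) false w + (if f y then -2 else 1) * Hs f (indW y) false w := by
      intro w
      refine Hs_linear f _ _ _ _ (fun x => ?_) false w
      unfold mixW indW flipW
      by_cases hxy : x = y
      · subst hxy
        cases f x <;> simp
      · simp [hxy]
    have h3 : ((2 * E : ℕ) : ℤ) ∣ (if f y then -2 else 1) * (oo f y u - oo f y v) := by
      have h4 := dvd_sub h2 h1
      have h5 : (if f y then -2 else 1) * (oo f y u - oo f y v) =
          Hs f (mixW f y) false u - Hs f (mixW f y) false v -
            (Hs f (flipW f) false u - Hs f (flipW f) false v) := by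
        rw [hlin u, hlin v]
        simp only [oo]
        ring
      rw [h5]
      exact h4
    by_cases hfy : f y = true
    · rw [if_pos hfy] at h3
      obtain ⟨k, hk⟩ := h3
      refine ⟨-k, ?_⟩
      push_cast at hk
      have h6 : (2 : ℤ) * (oo f y u - oo f y v) = 2 * (E * -k) := by
        linarith
      have h7 := mul_left_cancel₀ (by norm_num : (2 : ℤ) ≠ 0) h6
      exact h7
    · have hfy' : f y = false := by simpa using hfy
      simp only [hfy', Bool.false_eq_true, if_false, one_mul] at h3
      exact hd2 _ h3
  have haa : aa f c u = aa f c v := by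
    unfold aa
    refine Finset.prod_congr rfl (fun y _ => ?_)
    rw [zpow_congr_of_dvd (c y false) E (hpowA _) _ _ (ho y),
      zpow_congr_of_dvd (c y true) E (hpowA _) (nn y u - oo f y u) (nn y v - oo f y v) ?_]
    have := dvd_sub (hn y) (ho y)
    rw [show nn y u - oo f y u - (nn y v - oo f y v) =
      nn y u - nn y v - (oo f y u - oo f y v) by ring]
    exact this
  rw [hform u, hform v, haa, zpow_congr_of_dvd s E (hpow s) _ _ hJ]

end Vale.Agent.P329h8
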