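import Vale.Agent.P329h8.Basic

namespace Vale.Agent.P329h8

variable {α Γ : Type}

/-- Pulling back star free languages along a segmenting code. -/
theorem HB.preimage {Y : List α → Prop} {τ : List α → List Γ}
    (hY : HB 0 Y)
    (hadd : ∀ u v, Y u → Y v → Y (u ++ v) ∧ τ (u ++ v) = τ u ++ τ v)
    (hsplit : ∀ w ξ₁ ξ₂, Y w → τ w = ξ₁ ++ ξ₂ →
      ∃ w₁ w₂, w = w₁ ++ w₂ ∧ Y w₁ ∧ Y w₂ ∧ τ w₁ = ξ₁ ∧ τ w₂ = ξ₂)
    (heps : HB 0 (fun w => Y w ∧ τ w = []))
    (hsing : ∀ γ, HB 0 (fun w => Y w ∧ τ w = [γ]))
    (e : GExp Γ) (he : e.height ≤ 0) : HB 0 (fun w => Y w ∧ τ w ∈ e.lang) := by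
  induction e with
  | zero => exact (HB.ff 0).congr (fun w => by simp)
  | one => exact heps.congr (fun w => by simp)
  | letter a => exact (hsing a).congr (fun w => by simp)
  | plus P Q ihP ihQ =>
    have hP : P.height ≤ 0 := le_trans (le_max_left _ _) he
    have hQ : Q.height ≤ 0 := le_trans (le_max_right _ _) he
    refine ((ihP hP).or (ihQ hQ)).congr (fun w => ?_)
    simp only [GExp.mem_plus]
    tauto
  | times P Q ihP ihQ =>
    have hP : P.height ≤ 0 := le_trans (le_max_left _ _) he
    have hQ : Q.height ≤ 0 := le_trans (le_max_right _ _) he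
    refine ((ihP hP).concat (ihQ hQ)).congr (fun w => ?_)
    constructor
    · rintro ⟨u, v, rfl, ⟨hu, hu'⟩, ⟨hv, hv'⟩⟩
      obtain ⟨h1, h2⟩ := hadd u v hu hv
      refine ⟨h1, ?_⟩
      rw [h2, GExp.mem_times]
      exact ⟨_, _, rfl, hu', hv'⟩
    · rintro ⟨hw, h⟩
      rw [GExp.mem_times] at h
      obtain ⟨ξ₁, ξ₂, h12, h1, h2⟩ := h
      obtain ⟨w₁, w₂, rfl, hw₁, hw₂, rfl, rfl⟩ := hsplit w ξ₁ ξ₂ hw h12
      exact ⟨w₁, w₂, rfl, ⟨hw₁, h1⟩, ⟨hw₂, h2⟩⟩
  | neg P ih =>
    have hP : P.height ≤ 0 := he
    refine (hY.and (ih hP).not).congr (fun w => ?_)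
    simp only [GExp.mem_neg]
    tauto
  | star P _ =>
    simp [GExp.height] at he

/-- Subtype code: keep the letters satisfying `P`. -/
noncomputable def keep (P : α → Prop) (w : List α) : List {x // P x} := by
  classical
  exact w.filterMap (fun x => if h : P x then some ⟨x, h⟩ else none)

theorem keep_append (P : α → Prop) (u v : List α) :
    keep P (u ++ v) = keep P u ++ keep P v := by
  simp [keep, List.filterMap_append]

theorem keep_map (P : α → Prop) (u : List {x // P x}) : keep P (u.map Subtype.val) = u := by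
  classical
  induction u with
  | nil => simp [keep]
  | cons a u ih =>
    have : keep P ((a :: u).map Subtype.val) = a :: keep P (u.map Subtype.val) := by
      simp [keep, a.2]
    rw [this, ih]

theorem map_keep (P : α → Prop) (w : List α) (hw : ∀ x ∈ w, P x) :
    (keep P w).map Subtype.val = w := by
  classical
  induction w with
  | nil => simp [keep]
  | cons a u ih =>
    have ha : P a := hw a (by simp)
    have : keep P (a :: u) = ⟨a, ha⟩ :: keep P u := by
      simp [keep, ha]
    rw [this, List.map_cons, ih (fun x hx => hw x (by simp [hx]))]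

theorem all_map_val (P : α → Prop) (u : List {x // P x}) : ∀ x ∈ u.map Subtype.val, P x := by
  intro x hx
  obtain ⟨y, _, rfl⟩ := List.mem_map.1 hx
  exact y.2

/-- A star free predicate on words over a sub-alphabet lifts. -/
theorem HB.lift_subtype [Finite α] (P : α → Prop) {p : List {x // P x} → Prop} (hp : HB 0 p) :
    HB 0 (fun w : List α => ∃ u : List {x // P x}, w = u.map Subtype.val ∧ p u) := by
  classical
  obtain ⟨e, he, hw⟩ := hp
  have key := HB.preimage (Y := fun w : List α => ∀ x ∈ w, P x) (τ := keep P)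
    (HB.allLetters 0 P)
    (fun u v hu hv => ⟨fun x hx => (List.mem_append.1 hx).elim (hu x) (hv x), keep_append P u v⟩)
    (fun w ξ₁ ξ₂ hw h => by
      refine ⟨ξ₁.map Subtype.val, ξ₂.map Subtype.val, ?_, all_map_val _ _, all_map_val _ _,
        keep_map _ _, keep_map _ _⟩
      rw [← List.map_append, ← h, map_keep P w hw])
    (((HB.nil 0).congr (fun w => ?_)))
    (fun γ => ((HB.single 0 γ.1).congr (fun w => ?_)))
    e he
  · refine key.congr (fun w => ?_)
    constructor
    · rintro ⟨h1, h2⟩
      exact ⟨keep P w, (map_keep P w h1).symm, (hw _).1 h2⟩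
    · rintro ⟨u, rfl, hu⟩
      refine ⟨all_map_val _ _, ?_⟩
      rw [keep_map]
      exact (hw _).2 hu
  · constructor
    · rintro rfl; simp [keep]
    · rintro ⟨h1, h2⟩
      rw [← map_keep P w h1, h2]; rfl
  · constructor
    · rintro rfl
      refine ⟨by simpa using γ.2, ?_⟩
      simp [keep, γ.2]
    · rintro ⟨h1, h2⟩
      rw [← map_keep P w h1, h2]; rfl

/-- Star free languages are closed under reversal. -/
theorem HB.reverse {p : List α → Prop} (hp : HB 0 p) : HB 0 (fun w => p w.reverse) := by
  obtain ⟨e, he, hw⟩ := hp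
  have key : ∀ e : GExp α, e.height ≤ 0 → HB 0 (fun w => w.reverse ∈ e.lang) := by
    intro e
    induction e with
    | zero => intro _; exact (HB.ff 0).congr (fun w => by simp)
    | one => intro _; exact (HB.nil 0).congr (fun w => by simp)
    | letter a =>
      intro _
      refine (HB.single 0 a).congr (fun w => ?_)
      simp only [GExp.mem_letter]
      constructor
      · rintro rfl; simp
      · intro h
        have := congrArg List.reverse h
        simpa using this
    | plus P Q ihP ihQ =>
      intro he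
      have hP : P.height ≤ 0 := le_trans (le_max_left _ _) he
      have hQ : Q.height ≤ 0 := le_trans (le_max_right _ _) he
      exact ((ihP hP).or (ihQ hQ)).congr (fun w => by simp only [GExp.mem_plus])
    | times P Q ihP ihQ =>
      intro he
      have hP : P.height ≤ 0 := le_trans (le_max_left _ _) he
      have hQ : Q.height ≤ 0 := le_trans (le_max_right _ _) he
      refine ((ihQ hQ).concat (ihP hP)).congr (fun w => ?_)
      rw [GExp.mem_times]
      constructor
      · rintro ⟨u, v, rfl, hu, hv⟩
        exact ⟨v.reverse, u.reverse, by simp, hv, hu⟩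
      · rintro ⟨u, v, h, hu, hv⟩
        refine ⟨v.reverse, u.reverse, ?_, by simpa using hv, by simpa using hu⟩
        have := congrArg List.reverse h
        simpa using this
    | neg P ih =>
      intro he
      exact (ih he).not.congr (fun w => by simp only [GExp.mem_neg])
    | star P _ =>
      intro he
      simp [GExp.height] at he
  exact (key e he).congr (fun w => hw _)

end Vale.Agent.P329h8
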