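import Vale.Agent.P329h8.Pre

namespace Vale.Agent.P329h8

/-- Aperiodic monoids. -/
def Aper (M : Type) [Monoid M] : Prop := ∀ x : M, ∃ n : ℕ, x ^ n = x ^ (n + 1)

/-- All languages recognized through the letter map `φ` are star free. -/
def Rec {M : Type} [Monoid M] {α : Type} (φ : α → M) : Prop :=
  ∀ s : M, HB 0 (fun w : List α => (w.map φ).prod = s)

/-- The submonoid `{1} ∪ M c`. -/
def leftSub {M : Type} [Monoid M] (c : M) : Submonoid M where
  carrier := {x | x = 1 ∨ ∃ r, x = r * c}
  one_mem' := Or.inl rfl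
  mul_mem' := by
    rintro x y (rfl | ⟨r, rfl⟩) (rfl | ⟨t, rfl⟩)
    · exact Or.inl (by simp)
    · exact Or.inr ⟨t, by simp⟩
    · exact Or.inr ⟨r, by simp⟩
    · exact Or.inr ⟨r * c * t, by simp [mul_assoc]⟩

theorem Aper.sub {M : Type} [Monoid M] (h : Aper M) (N : Submonoid M) : Aper N := by
  intro x
  obtain ⟨n, hn⟩ := h x.1
  exact ⟨n, Subtype.ext (by simpa using hn)⟩

section code

variable {M : Type} [Monoid M] {α : Type}

/-- The letters of the coded alphabet: left multiples of `c`. -/
abbrev Gam (c : M) : Type := {y : M // ∃ r, y = r * c}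

/-- Words cut at `a`. -/
def YY (a : α) (w : List α) : Prop := w = [] ∨ ∃ w', w = w' ++ [a]

theorem YY.nil {a : α} : YY a [] := Or.inl rfl

theorem YY.cons {a : α} {u w : List α} (h : YY a w) : YY a (u ++ a :: w) := by
  rcases h with rfl | ⟨w', rfl⟩
  · exact Or.inr ⟨u, rfl⟩
  · exact Or.inr ⟨u ++ a :: w', by simp⟩

theorem YY.decomp {a : α} {w : List α} (h : YY a w) (hw : w ≠ []) :
    ∃ u w', w = u ++ a :: w' ∧ (∀ x ∈ u, x ≠ a) ∧ YY a w' := by
  rcases h with rfl | ⟨w₁, rfl⟩
  · exact (hw rfl).elim
  · have hmem : a ∈ w₁ ++ [a] := by simp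
    obtain ⟨u, w', h1, h2⟩ := List.eq_append_cons_of_mem hmem
    refine ⟨u, w', h1, fun x hx hxa => h2 (hxa ▸ hx), ?_⟩
    rcases List.eq_nil_or_concat w' with rfl | ⟨L, b, rfl⟩
    · exact Or.inl rfl
    · refine Or.inr ⟨L, ?_⟩
      have h3 : w₁ ++ [a] = (u ++ a :: L) ++ [b] := by simpa using h1
      have h4 := (List.append_inj' h3 rfl).2
      simp only [List.cons.injEq, and_true] at h4
      simp [h4]

theorem YY.rec' {a : α} {P : List α → Prop} (h0 : P [])
    (hs : ∀ u w', (∀ x ∈ u, x ≠ a) → YY a w' → P w' → P (u ++ a :: w'))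
    (w : List α) (hw : YY a w) : P w := by
  induction hn : w.length using Nat.strong_induction_on generalizing w with
  | _ n ih =>
    by_cases h : w = []
    · subst h; exact h0
    · obtain ⟨u, w', rfl, hu, hw'⟩ := hw.decomp h
      refine hs u w' hu hw' (ih w'.length ?_ w' hw' rfl)
      subst hn
      simp
      omega

theorem YY.append {a : α} {u v : List α} (hu : YY a u) (hv : YY a v) : YY a (u ++ v) := by
  rcases hv with rfl | ⟨w', rfl⟩
  · simpa using hu
  · exact Or.inr ⟨u ++ w', by simp⟩

variable [DecidableEq α]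

/-- The code: cut a word after each occurrence of `a` and record the value of each segment. -/
def code (φ : α → M) (a : α) : M → List α → List (Gam (φ a))
  | _, [] => []
  | acc, x :: w =>
    if x = a then ⟨acc * φ a, acc, rfl⟩ :: code φ a 1 w else code φ a (acc * φ x) w

/-- Value of a coded letter in the submonoid. -/
def Gam.val {c : M} (y : Gam c) : leftSub c := ⟨y.1, Or.inr y.2⟩

variable (φ : α → M) (a : α)

theorem code_append (u v : List α) (hu : ∀ x ∈ u, x ≠ a) (acc : M) :
    code φ a acc (u ++ a :: v) =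
      ⟨acc * (u.map φ).prod * φ a, acc * (u.map φ).prod, rfl⟩ :: code φ a 1 v := by
  induction u generalizing acc with
  | nil => simp [code]
  | cons x u ih =>
    have hx : x ≠ a := hu x (by simp)
    simp only [List.cons_append, code, hx, if_false]
    rw [ih (fun y hy => hu y (by simp [hy]))]
    simp [mul_assoc]

variable {a}

theorem code_add (u v : List α) (hu : YY a u) :
    code φ a 1 (u ++ v) = code φ a 1 u ++ code φ a 1 v := by
  refine YY.rec' (P := fun u => code φ a 1 (u ++ v) = code φ a 1 u ++ code φ a 1 v)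
    (by simp [code]) ?_ u hu
  intro u w' hu _ ih
  have h1 : (u ++ a :: w') ++ v = u ++ a :: (w' ++ v) := by simp
  rw [h1, code_append φ a u _ hu, code_append φ a u _ hu, ih]
  simp

theorem code_eval (w : List α) (hw : YY a w) :
    (((code φ a 1 w).map Gam.val).prod : leftSub (φ a)).1 = (w.map φ).prod := by
  refine YY.rec' (P := fun w => (((code φ a 1 w).map Gam.val).prod : leftSub (φ a)).1 =
    (w.map φ).prod) (by simp [code]) ?_ w hw
  intro u w' hu _ ih
  rw [code_append φ a u _ hu]
  simp only [List.map_cons, List.prod_cons, Submonoid.coe_mul, ih, List.map_append,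
    List.prod_append]
  simp [Gam.val, mul_assoc]

theorem code_split (w : List α) (ξ₁ ξ₂ : List (Gam (φ a))) (hw : YY a w)
    (h : code φ a 1 w = ξ₁ ++ ξ₂) :
    ∃ w₁ w₂, w = w₁ ++ w₂ ∧ YY a w₁ ∧ YY a w₂ ∧ code φ a 1 w₁ = ξ₁ ∧ code φ a 1 w₂ = ξ₂ := by
  induction ξ₁ generalizing w with
  | nil => exact ⟨[], w, rfl, YY.nil, hw, by simp [code], by simpa using h⟩
  | cons γ ξ ih =>
    have hne : w ≠ [] := by
      rintro rfl
      simp [code] at h
    obtain ⟨u, w', rfl, hu, hw'⟩ := hw.decomp hne
    rw [code_append φ a u _ hu] at h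
    simp only [List.cons_append, List.cons.injEq] at h
    obtain ⟨w₁, w₂, rfl, h1, h2, h3, h4⟩ := ih w' hw' h.2
    refine ⟨u ++ a :: w₁, w₂, by simp, h1.cons, h2, ?_, h4⟩
    rw [code_append φ a u _ hu, h3, ← h.1]

theorem code_eps (w : List α) : (YY a w ∧ code φ a 1 w = []) ↔ w = [] := by
  constructor
  · rintro ⟨hw, h⟩
    by_contra hne
    obtain ⟨u, w', rfl, hu, hw'⟩ := hw.decomp hne
    rw [code_append φ a u _ hu] at h
    simp at h
  · rintro rfl
    exact ⟨YY.nil, by simp [code]⟩

theorem code_sing (w : List α) (γ : Gam (φ a)) :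
    (YY a w ∧ code φ a 1 w = [γ]) ↔
      ∃ r, r * φ a = γ.1 ∧ ∃ u v, w = u ++ v ∧ ((∀ x ∈ u, x ≠ a) ∧ (u.map φ).prod = r) ∧ v = [a] := by
  constructor
  · rintro ⟨hw, h⟩
    have hne : w ≠ [] := by
      rintro rfl
      simp [code] at h
    obtain ⟨u, w', rfl, hu, hw'⟩ := hw.decomp hne
    rw [code_append φ a u _ hu] at h
    simp only [List.cons.injEq] at h
    have h5 : w' = [] := (code_eps φ w').1 ⟨hw', h.2⟩
    subst h5
    refine ⟨(u.map φ).prod, ?_, u, [a], rfl, ⟨hu, rfl⟩, rfl⟩
    rw [← h.1]
    simp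
  · rintro ⟨r, hr, u, v, rfl, ⟨hu, rfl⟩, rfl⟩
    refine ⟨YY.cons (u := u) YY.nil |>.elim (fun h => Or.inl h) (fun h => Or.inr h), ?_⟩
    rw [code_append φ a u _ hu]
    simp only [code]
    congr 1
    apply Subtype.ext
    simp [hr]

theorem factor_word (w : List α) : ∃ w' r, w = w' ++ r ∧ YY a w' ∧ ∀ x ∈ r, x ≠ a := by
  induction hn : w.length using Nat.strong_induction_on generalizing w with
  | _ n ih =>
    by_cases h : a ∈ w
    · obtain ⟨u, v, rfl, hu⟩ := List.eq_append_cons_of_mem h
      obtain ⟨w', r, rfl, hw', hr⟩ := ih v.length (by subst hn; simp; omega) v rfl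
      refine ⟨u ++ a :: w', r, by simp, hw'.cons, hr⟩
    · exact ⟨[], w, rfl, YY.nil, fun x hx hxa => h (hxa ▸ hx)⟩

end code

theorem HB.YY {α : Type} [Finite α] (a : α) : HB 0 (YY a) := by
  refine ((HB.nil 0).or ((HB.tt 0).concat (HB.single 0 a))).congr (fun w => ?_)
  constructor
  · rintro (rfl | ⟨u, v, rfl, -, rfl⟩)
    · exact Or.inl rfl
    · exact Or.inr ⟨u, rfl⟩
  · rintro (rfl | ⟨u, rfl⟩)
    · exact Or.inl rfl
    · exact Or.inr ⟨u, [a], rfl, trivial, rfl⟩

/-- The main reduction step of the Schützenberger argument. -/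
theorem schutz_left_step (M : Type) [Monoid M] [Finite M] (α : Type) [Finite α]
    (hap : Aper M)
    (IHM : ∀ (N : Type) [Monoid N] [Finite N], Nat.card N < Nat.card M → Aper N →
      ∀ (Γ : Type) [Finite Γ] (ψ : Γ → N), Rec ψ)
    (IHα : ∀ (β : Type) [Finite β], Nat.card β < Nat.card α → ∀ ψ : β → M, Rec ψ)
    (φ : α → M) (a : α) (ha : leftSub (φ a) ≠ ⊤) : Rec φ := by
  classical
  intro s
  -- segments without `a`
  have hL : ∀ r : M, HB 0 (fun w : List α => (∀ x ∈ w, x ≠ a) ∧ (w.map φ).prod = r) := by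
    intro r
    have hcard : Nat.card {x // x ≠ a} < Nat.card α := Finite.card_subtype_lt (x := a) (by simp)
    have h1 := IHα {x // x ≠ a} hcard (fun x => φ x.1) r
    refine (HB.lift_subtype (fun x => x ≠ a) h1).congr (fun w => ?_)
    constructor
    · rintro ⟨u, rfl, hu⟩
      refine ⟨all_map_val (fun x => x ≠ a) u, ?_⟩
      rw [← hu]
      simp
    · rintro ⟨h1, h2⟩
      refine ⟨keep (fun x => x ≠ a) w, (map_keep _ w h1).symm, ?_⟩
      rw [← h2]
      conv_rhs => rw [← map_keep (fun x => x ≠ a) w h1]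
      simp
  -- the smaller monoid
  have hcard : Nat.card (leftSub (φ a)) < Nat.card M := by
    obtain ⟨x, hx⟩ : ∃ x, x ∉ leftSub (φ a) := by
      by_contra hcon
      push Not at hcon
      exact ha ((Submonoid.eq_top_iff' _).2 hcon)
    exact Finite.card_subtype_lt (x := x) hx
  have hE := IHM (leftSub (φ a)) hcard (hap.sub _) (Gam (φ a)) (Gam.val)
  -- transfer along the code
  have hpre : ∀ t : leftSub (φ a), HB 0 (fun w : List α =>
      YY a w ∧ ((code φ a 1 w).map Gam.val).prod = t) := by
    intro t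
    obtain ⟨e, he, hw⟩ := hE t
    have key := HB.preimage (Y := YY a) (τ := code φ a 1) (HB.YY a)
      (fun u v hu hv => ⟨hu.append hv, code_add φ u v hu⟩)
      (fun w ξ₁ ξ₂ hw h => code_split φ w ξ₁ ξ₂ hw h)
      ((HB.nil 0).congr (fun w => (code_eps φ w).symm))
      (fun γ => by
        have h1 : HB 0 (fun w : List α => ∃ r : M, r * φ a = γ.1 ∧ ∃ u v, w = u ++ v ∧
            ((∀ x ∈ u, x ≠ a) ∧ (u.map φ).prod = r) ∧ v = [a]) :=
          HB.exists_and _ (fun r => (hL r).concat (HB.single 0 a))
        exact h1.congr (fun w => (code_sing φ w γ).symm))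
      e he
    exact key.congr (fun w => by rw [hw])
  have hmain : HB 0 (fun w : List α => ∃ t : leftSub (φ a) × M, t.1.1 * t.2 = s ∧
      ∃ u v, w = u ++ v ∧ (YY a u ∧ ((code φ a 1 u).map Gam.val).prod = t.1) ∧
        ((∀ x ∈ v, x ≠ a) ∧ (v.map φ).prod = t.2)) :=
    HB.exists_and _ (fun t => (hpre t.1).concat (hL t.2))
  refine hmain.congr (fun w => ?_)
  constructor
  · rintro ⟨⟨t, r⟩, hs, u, v, rfl, ⟨hu, hu'⟩, ⟨hv, hv'⟩⟩
    simp only [List.map_append, List.prod_append, hv']
    rw [← code_eval φ u hu, hu']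
    exact hs
  · intro h
    obtain ⟨u, v, rfl, hu, hv⟩ := factor_word (a := a) w
    refine ⟨(((code φ a 1 u).map Gam.val).prod, (v.map φ).prod), ?_, u, v, rfl, ⟨hu, rfl⟩,
      ⟨hv, rfl⟩⟩
    simp only
    rw [code_eval φ u hu, ← h]
    simp

open MulOpposite in
theorem prod_op {M : Type} [Monoid M] {α : Type} (φ : α → M) (w : List α) :
    (w.map (fun x => op (φ x))).prod = op ((w.reverse.map φ).prod) := by
  induction w with
  | nil => simp
  | cons x w ih =>
    simp only [List.map_cons, List.prod_cons, ih, List.reverse_cons, List.map_append,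
      List.prod_append, List.map_nil, List.prod_nil, mul_one, op_mul]

open MulOpposite in
theorem Rec.of_op {M : Type} [Monoid M] {α : Type} {φ : α → M}
    (h : Rec (fun x => op (φ x))) : Rec φ := by
  intro s
  refine (h (op s)).reverse.congr (fun w => ?_)
  rw [prod_op, List.reverse_reverse]
  exact op_inj

open MulOpposite in
theorem Rec.to_op {M : Type} [Monoid M] {α : Type} {φ : α → M}
    (h : Rec φ) : Rec (fun x => op (φ x)) := by
  intro s
  refine (h (unop s)).reverse.congr (fun w => ?_)
  rw [prod_op]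
  constructor
  · intro h; rw [h]; simp
  · intro h; rw [← h]; simp

theorem Aper.op {M : Type} [Monoid M] (h : Aper M) : Aper Mᵐᵒᵖ := by
  intro x
  obtain ⟨n, hn⟩ := h x.unop
  refine ⟨n, MulOpposite.unop_injective ?_⟩
  simpa using hn

/-- Counting the letters satisfying `P` exactly is star free. -/
theorem HB.count_eq {α : Type} [Finite α] (P : α → Bool) (k : ℕ) :
    HB 0 (fun w : List α => w.countP P = k) := by
  induction k with
  | zero =>
    refine (HB.allLetters 0 (fun x => P x = false)).congr (fun w => ?_)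
    simp [List.countP_eq_zero]
  | succ k ih =>
    have h0 : HB 0 (fun w : List α => ∃ x, P x = true ∧ w = [x]) :=
      HB.exists_and _ (fun x => HB.single 0 x)
    have h1 := (((HB.allLetters 0 (fun x => P x = false))).concat h0).concat ih
    refine h1.congr (fun w => ?_)
    constructor
    · rintro ⟨u, v, rfl, ⟨s, t, rfl, hs, x, hx, rfl⟩, hv⟩
      have hs' : s.countP P = 0 := by simpa [List.countP_eq_zero] using hs
      simp [List.countP_append, hs', hv, hx]
    · intro h
      induction w with
      | nil => simp at h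
      | cons y w ih' =>
        by_cases hy : P y = true
        · refine ⟨[y], w, rfl, ⟨[], [y], rfl, by simp, y, hy, rfl⟩, ?_⟩
          rw [List.countP_cons] at h
          simpa [hy] using h
        · have h2 : w.countP P = k + 1 := by
            rw [List.countP_cons] at h
            simpa [hy] using h
          obtain ⟨u, v, rfl, ⟨s, t, rfl, hs, x, hx, rfl⟩, hv⟩ := ih' h2
          refine ⟨y :: (s ++ [x]), v, by simp, ⟨y :: s, [x], rfl, ?_, x, hx, rfl⟩, hv⟩
          intro z hz
          rcases List.mem_cons.1 hz with rfl | hz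
          · simpa using hy
          · exact hs z hz

/-- The degenerate case: every letter acts as `1` or as a fixed element `c`. -/
theorem rec_of_two_values {M : Type} [Monoid M] {α : Type} [Finite α]
    (φ : α → M) (c : M) (hc : ∀ x, φ x = 1 ∨ φ x = c) (m : ℕ) (hm : c ^ m = c ^ (m + 1)) :
    Rec φ := by
  classical
  intro s
  let P : α → Bool := fun x => decide (φ x ≠ 1)
  have hev : ∀ w : List α, (w.map φ).prod = c ^ (w.countP P) := by
    intro w
    induction w with
    | nil => simp
    | cons x w ih =>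
      simp only [List.map_cons, List.prod_cons, ih, List.countP_cons]
      by_cases hx : φ x = 1
      · have hP : P x = Bool.false := by simp [P, hx]
        simp [hP, hx]
      · have h2 : φ x = c := (hc x).resolve_left hx
        have hP : P x = Bool.true := by simp [P, hx]
        simp only [hP, if_true, h2, pow_succ']
  have hstab : ∀ k, m ≤ k → c ^ k = c ^ m := by
    intro k hk
    induction k, hk using Nat.le_induction with
    | base => rfl
    | succ k hk ih => rw [pow_succ, ih, ← pow_succ, ← hm]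
  -- small counts exactly, large counts collectively
  have h1 : HB 0 (fun w : List α => ∃ k : Fin m, c ^ (k : ℕ) = s ∧ w.countP P = k) :=
    HB.exists_and _ (fun k => HB.count_eq P k)
  have h2 : HB 0 (fun w : List α => ¬ ∃ k : Fin m, w.countP P = k) :=
    (HB.exists (fun k : Fin m => HB.count_eq P k)).not
  by_cases hs : c ^ m = s
  · refine (h1.or h2).congr (fun w => ?_)
    rw [hev]
    constructor
    · rintro (⟨k, hk, h⟩ | h)
      · rw [h]; exact hk
      · have hge : m ≤ w.countP P := by
          by_contra hlt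
          exact h ⟨⟨w.countP P, by omega⟩, rfl⟩
        rw [hstab _ hge, hs]
    · intro h
      by_cases hlt : w.countP P < m
      · exact Or.inl ⟨⟨_, hlt⟩, h, rfl⟩
      · refine Or.inr ?_
        rintro ⟨k, hk⟩
        have := k.2
        omega
  · refine h1.congr (fun w => ?_)
    rw [hev]
    constructor
    · rintro ⟨k, hk, h⟩
      rw [h]; exact hk
    · intro h
      by_cases hlt : w.countP P < m
      · exact ⟨⟨_, hlt⟩, h, rfl⟩
      · exact (hs (by rw [← hstab _ (not_lt.1 hlt), h])).elim

/-- Schützenberger: words evaluated in a finite aperiodic monoid form star free languages. -/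
theorem schutz : ∀ (c d : ℕ) (M : Type) [Monoid M] [Finite M] (α : Type) [Finite α],
    Nat.card M = c → Nat.card α = d → Aper M → ∀ φ : α → M, Rec φ := by
  intro c
  induction c using Nat.strong_induction_on with
  | _ c IHc =>
  intro d
  induction d using Nat.strong_induction_on with
  | _ d IHd =>
  intro M _ _ α _ hM hα hap φ
  have IHM : ∀ (N : Type) [Monoid N] [Finite N], Nat.card N < Nat.card M → Aper N →
      ∀ (Γ : Type) [Finite Γ] (ψ : Γ → N), Rec ψ := by
    intro N _ _ hN hapN Γ _ ψ
    exact IHc (Nat.card N) (hM ▸ hN) (Nat.card Γ) N Γ rfl rfl hapN ψ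
  have IHα : ∀ (β : Type) [Finite β], Nat.card β < Nat.card α → ∀ ψ : β → M, Rec ψ := by
    intro β _ hβ ψ
    exact IHd (Nat.card β) (hα ▸ hβ) M β hM rfl hap ψ
  by_cases hL : ∃ a, leftSub (φ a) ≠ ⊤
  · obtain ⟨a, ha⟩ := hL
    exact schutz_left_step M α hap IHM IHα φ a ha
  by_cases hR : ∃ a, leftSub (MulOpposite.op (φ a)) ≠ ⊤
  · obtain ⟨a, ha⟩ := hR
    have : Finite Mᵐᵒᵖ := Finite.of_equiv M MulOpposite.opEquiv
    refine Rec.of_op (schutz_left_step Mᵐᵒᵖ α hap.op ?_ ?_ (fun x => MulOpposite.op (φ x)) a ha)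
    · intro N _ _ hN hapN Γ _ ψ
      refine IHM N ?_ hapN Γ ψ
      simpa [Nat.card_congr (MulOpposite.opEquiv (α := M)).symm] using hN
    · intro β _ hβ ψ
      have := (IHα β hβ (fun x => (ψ x).unop)).to_op
      simpa using this
  push Not at hL hR
  -- every two nontrivial letters have the same value
  have hsame : ∀ a b, φ a ≠ 1 → φ b ≠ 1 → φ a = φ b := by
    intro a b ha hb
    have h1 : MulOpposite.op (φ b) ∈ leftSub (MulOpposite.op (φ a)) := by rw [hR a]; trivial
    have h2 : φ a ∈ leftSub (φ b) := by rw [hL b]; trivial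
    obtain ⟨r, hr⟩ : ∃ r, MulOpposite.op (φ b) = r * MulOpposite.op (φ a) := by
      rcases h1 with h1 | h1
      · exact (hb (MulOpposite.op_injective (by simpa using h1))).elim
      · exact h1
    obtain ⟨x, hx⟩ : ∃ x, φ a = x * φ b := by
      rcases h2 with h2 | h2
      · exact (ha h2).elim
      · exact h2
    have hy : φ b = φ a * r.unop := by
      have := congrArg MulOpposite.unop hr
      simpa using this
    have hiter : ∀ k : ℕ, φ a = x ^ k * φ a * r.unop ^ k := by
      intro k
      induction k with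
      | zero => simp
      | succ k ih =>
        have h3 : φ a = x * φ a * r.unop := by
          rw [mul_assoc, ← hy]; exact hx
        calc φ a = x ^ k * φ a * r.unop ^ k := ih
          _ = x ^ k * (x * φ a * r.unop) * r.unop ^ k := by rw [← h3]
          _ = x ^ (k + 1) * φ a * r.unop ^ (k + 1) := by
            rw [pow_succ x k, pow_succ' r.unop k]; simp only [mul_assoc]
    obtain ⟨n, hn⟩ := hap r.unop
    have h4 : φ a * r.unop = φ a := by
      calc φ a * r.unop = x ^ n * φ a * r.unop ^ n * r.unop := by rw [← hiter n]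
        _ = x ^ n * φ a * r.unop ^ (n + 1) := by rw [pow_succ]; simp only [mul_assoc]
        _ = x ^ n * φ a * r.unop ^ n := by rw [← hn]
        _ = φ a := (hiter n).symm
    rw [hy, h4]
  by_cases hex : ∃ a, φ a ≠ 1
  · obtain ⟨a, ha⟩ := hex
    obtain ⟨m, hm⟩ := hap (φ a)
    refine rec_of_two_values φ (φ a) (fun x => ?_) m hm
    by_cases hx : φ x = 1
    · exact Or.inl hx
    · exact Or.inr (hsame x a hx ha)
  · push Not at hex
    exact rec_of_two_values φ 1 (fun x => Or.inl (hex x)) 0 (by simp)

/-- Schützenberger, packaged. -/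
theorem schutz' {M : Type} [Monoid M] [Finite M] {α : Type} [Finite α] (hap : Aper M)
    (φ : α → M) : Rec φ := schutz _ _ M α rfl rfl hap φ

end Vale.Agent.P329h8
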